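import Vale.Agent.P064.Main

open Vale.Agent.P064 in
theorem Vale.Agent.Results.P064.LogSq.result :
    ∃ C : ℝ, ∀ n : ℕ, 2 ≤ n → ∀ (V : Type) [Fintype V] (H : SimpleGraph V),
      Fintype.card V ≤ n → H ≠ ⊥ → pc n H ≤ C * pE n H * Real.log n ^ 2 :=
  ⟨3200, fun _ hn _ _ _ hV hH => main hn hV hH⟩
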